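import Vale.Agent.Lib.P161E.Iff

/-! For `d ≥ 3`, the free Ising measure on the `d`-regular tree is a factor of IID exactly when
`(d - 1) θ ^ 2 ≤ 1`, where `θ = tanh β`. -/

open MeasureTheory

namespace Vale.Agent.Results.P161.AFIIDExactRange

open Vale.Agent.Lib.P161

/-- For every regular tree of degree `d ≥ 3` and every `β ≥ 0`, the following are equivalent:
there is a measurable map `Φ` from `[0,1]^V` to `{true, false}^V` such that for each automorphism `φ`
of the tree, `Φ (U ∘ φ⁻¹) = Φ U ∘ φ⁻¹` for almost every `U`, and the image of the iid uniform measure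
under `Φ` gives to each cylinder over a finite connected set `D` the free Ising probability
`(1/2) ∏_{e ∈ E(D)} (1 + θ η_u η_v) / 2`, `θ = tanh β`; and `(d - 1) θ ^ 2 ≤ 1`. -/
theorem result {V : Type*} (G : SimpleGraph V) [G.LocallyFinite] (d : ℕ) (hd : 3 ≤ d)
    (hT : G.IsTree) (hreg : G.IsRegularOfDegree d) (β : ℝ) (hβ : 0 ≤ β) :
    (∃ Φ : (V → unitInterval) → (V → Bool), Measurable Φ ∧
      (∀ φ : G ≃g G, ∀ᵐ U ∂iidUniform V, Φ (U ∘ φ.symm) = Φ U ∘ φ.symm) ∧
      ∀ D : Finset V, (G.induce (D : Set V)).Connected → ∀ η : V → Bool,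
        (iidUniform V).map Φ {σ | ∀ v ∈ D, σ v = η v} =
          ENNReal.ofReal (isingCyl G (Real.tanh β) D η)) ↔
      ((d : ℝ) - 1) * Real.tanh β ^ 2 ≤ 1 :=
  Vale.Agent.Lib.P161E.fiid_iff G hd hT hreg hβ

end Vale.Agent.Results.P161.AFIIDExactRange
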