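import Vale.Agent.Lib.P161.Fiid
import Vale.Agent.Lib.P161.Defs

/-! The free Ising measure on the `d`-regular tree is a factor of IID whenever `(d - 1) θ ^ 2 < 1`,
where `θ = tanh β`. -/

open MeasureTheory

namespace Vale.Agent.Results.P161.FIID

open Vale.Agent.Lib.P161

/-- For every regular tree of degree `d ≥ 2` and every `β ≥ 0` with `(d - 1) (tanh β) ^ 2 < 1` there
is a measurable map `Φ` from `[0,1]^V` to `{true, false}^V`, equivariant under all automorphisms of
the tree at every point, such that the image of the iid uniform measure under `Φ` gives to each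
cylinder over a finite connected set `D` the free Ising probability
`(1/2) ∏_{e ∈ E(D)} (1 + θ η_u η_v) / 2`. -/
theorem result {V : Type*} (G : SimpleGraph V) [G.LocallyFinite] (d : ℕ) (hd : 2 ≤ d)
    (hT : G.IsTree) (hreg : G.IsRegularOfDegree d) (β : ℝ) (hβ : 0 ≤ β)
    (hθ : ((d : ℝ) - 1) * Real.tanh β ^ 2 < 1) :
    ∃ Φ : (V → unitInterval) → (V → Bool), Measurable Φ ∧
      (∀ (φ : G ≃g G) (U : V → unitInterval), Φ (U ∘ φ.symm) = Φ U ∘ φ.symm) ∧
      ∀ D : Finset V, (G.induce (D : Set V)).Connected → ∀ η : V → Bool,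
        (iidUniform V).map Φ {σ | ∀ v ∈ D, σ v = η v} =
          ENNReal.ofReal (isingCyl G (Real.tanh β) D η) :=
  fiid_main G hd hT hreg hβ hθ

end Vale.Agent.Results.P161.FIID
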